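import Vale.Agent.P154.Defs
import Vale.Agent.P154.RegAll
import Vale.Agent.P154.PoisFin

/-!
# P154: the three-state Potts channel on trees

Main definitions (in `Vale.Agent.P154.Defs`): `aTree q d lam n` is the quantity `a_n` of the
problem for the `q`-state Potts channel `P_lam` on the `d`-ary tree, `aGWTree q p lam n` the same
quantity (as an extended nonnegative real) for the Galton-Watson tree with offspring law `p`,
`poissonLaw d` is the Poisson law of mean `d`.
-/

namespace Vale.Agent.Results.P154.ThreeState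

open Filter Topology Vale.Agent.P154
open scoped ENNReal

/-- reconstruction: the sequence `a_n` has a positive limit -/
def Reconstruction (a : ℕ → ℝ) : Prop := ∃ L, 0 < L ∧ Tendsto a atTop (𝓝 L)

/-- nonreconstruction: the sequence `a_n` tends to zero -/
def Nonreconstruction (a : ℕ → ℝ) : Prop := Tendsto a atTop (𝓝 0)

/-- reconstruction, for sequences of extended nonnegative reals -/
def ReconstructionE (a : ℕ → ℝ≥0∞) : Prop := ∃ L, 0 < L ∧ Tendsto a atTop (𝓝 L)

/-- nonreconstruction, for sequences of extended nonnegative reals -/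
def NonreconstructionE (a : ℕ → ℝ≥0∞) : Prop := Tendsto a atTop (𝓝 0)

/-- **The Kesten-Stigum bound is tight for three states.**  For `q = 3`:
* on the `d`-ary tree, for **every** `d ≥ 2` and **every** admissible `lam ∈ [-1/2, 1]`,
  reconstruction holds iff `d lam² > 1`, and nonreconstruction iff `d lam² ≤ 1` (critical case
  included);
* on the Galton-Watson tree with Poisson(`d`) offspring, the same equivalences hold for every real
  `d ≥ 9` and every admissible `lam`, and for every real `d > 0` if `|lam| ≤ 1/3`;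
* above the Kesten-Stigum bound there is reconstruction on every Poisson tree;
* on Galton-Watson trees with arbitrary offspring law of mean `m`, nonreconstruction holds
  whenever `m lam² ≤ 1` and `0 ≤ lam ≤ 1/3`. -/
theorem result :
    (∀ d : ℕ, 2 ≤ d → ∀ lam : ℝ, -(1 / 2) ≤ lam → lam ≤ 1 →
      (Reconstruction (aTree 3 d lam) ↔ 1 < d * lam ^ 2) ∧
      (Nonreconstruction (aTree 3 d lam) ↔ d * lam ^ 2 ≤ 1)) ∧
    (∀ d lam : ℝ, 0 < d → -(1 / 2) ≤ lam → lam ≤ 1 → (|lam| ≤ 1 / 3 ∨ 9 ≤ d) →
      (ReconstructionE (aGWTree 3 (poissonLaw d) lam) ↔ 1 < d * lam ^ 2) ∧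
      (NonreconstructionE (aGWTree 3 (poissonLaw d) lam) ↔ d * lam ^ 2 ≤ 1)) ∧
    (∀ d lam : ℝ, 0 < d → -(1 / 2) ≤ lam → lam ≤ 1 → 1 < d * lam ^ 2 →
      ReconstructionE (aGWTree 3 (poissonLaw d) lam)) ∧
    (∀ (p : ℕ → ℝ≥0∞) (lam : ℝ), ∑' k, p k = 1 → 0 ≤ lam → lam ≤ 1 / 3 →
      (∑' k, p k * k) * ENNReal.ofReal (lam ^ 2) ≤ 1 →
      NonreconstructionE (aGWTree 3 p lam)) := by
  refine ⟨?_, ?_, ?_, ?_⟩
  · intro d hd lam h0 h1
    exact Fin3.reg_iff hd h0 h1
  · intro d lam hd h0 h1 h
    exact Fin3.poisson_iff h0 h1 hd h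
  · intro d lam hd h0 h1 h
    exact Fin3.poisson_rec h0 h1 hd h
  · intro p lam hp h0 h1 hm
    exact Fin3.gw_star hp h0 h1 hm

end Vale.Agent.Results.P154.ThreeState
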