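import Vale.Agent.P154.Defs
import Vale.Agent.P154.Chains
import Vale.Agent.P154.Mono

/-!
# P154: the three-state ferromagnetic Potts channel

Main definitions (in `Vale.Agent.P154.Defs`): `aTree q d lam n` is the quantity `a_n` of the
problem for the `q`-state Potts channel `P_lam` on the `d`-ary tree, `aGWTree q p lam n` the same
quantity (as an extended nonnegative real) for the Galton-Watson tree with offspring law `p`,
`poissonLaw d` is the Poisson law of mean `d`.
-/

namespace Vale.Agent.Results.P154.ThreeStateFerro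

open Filter Topology Vale.Agent.P154
open scoped ENNReal

/-- reconstruction: the sequence `a_n` has a positive limit -/
def Reconstruction (a : ℕ → ℝ) : Prop := ∃ L, 0 < L ∧ Tendsto a atTop (𝓝 L)

/-- nonreconstruction: the sequence `a_n` tends to zero -/
def Nonreconstruction (a : ℕ → ℝ) : Prop := Tendsto a atTop (𝓝 0)

lemma potts_three_nonneg {lam : ℝ} (h0 : 0 ≤ lam) (h1 : lam ≤ 1) (i j : Fin 3) :
    0 ≤ potts 3 lam i j := by
  unfold potts
  have : 0 ≤ (1 - lam) / ((3 : ℕ) : ℝ) := by
    push_cast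
    apply div_nonneg <;> linarith
  have h2 : 0 ≤ lam * (if i = j then 1 else 0) := by
    split_ifs <;> simp [h0]
  linarith

/-- For `q = 3` and `0 ≤ lam ≤ 1`: on the `d`-ary tree, for **every** `d ≥ 2`, reconstruction holds
iff `d lam² > 1` (and nonreconstruction iff `d lam² ≤ 1`, critical case included).  On
Galton-Watson trees with arbitrary offspring law of mean `m`, in particular on Poisson trees,
nonreconstruction holds whenever `m lam² ≤ 1` and `lam ≤ 1/3`. -/
theorem result :
    (∀ d : ℕ, 2 ≤ d → ∀ lam : ℝ, 0 ≤ lam → lam ≤ 1 →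
      (Reconstruction (aTree 3 d lam) ↔ 1 < d * lam ^ 2) ∧
      (Nonreconstruction (aTree 3 d lam) ↔ d * lam ^ 2 ≤ 1)) ∧
    (∀ d lam : ℝ, 0 < d → 0 ≤ lam → lam ≤ 1 / 3 → d * lam ^ 2 ≤ 1 →
      Tendsto (aGWTree 3 (poissonLaw d) lam) atTop (𝓝 0)) ∧
    (∀ (p : ℕ → ℝ≥0∞) (lam : ℝ), ∑' k, p k = 1 → 0 ≤ lam → lam ≤ 1 / 3 →
      (∑' k, p k * k) * ENNReal.ofReal (lam ^ 2) ≤ 1 →
      Tendsto (aGWTree 3 p lam) atTop (𝓝 0)) := by
  simp only [aTree_eq, aGWTree_eq]
  refine ⟨?_, ?_, ?_⟩
  · intro d hd lam h0 h1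
    have hp := potts_three_nonneg h0 h1
    have hnon : d * lam ^ 2 ≤ 1 → Tendsto (aReg 3 d lam) atTop (𝓝 0) := by
      intro h
      obtain ⟨C⟩ := chain_exists d hd lam h0 h
      exact tendsto_of_chain hd h0 h1 h C
    have hrec : 1 < d * lam ^ 2 → Reconstruction (aReg 3 d lam) := by
      intro h
      obtain ⟨c, hc, hcn⟩ := ks_reg (q := 3) (by norm_num) hp h
      obtain ⟨L, hL⟩ := aReg_tendsto (q := 3) (d := d) (by norm_num) hp
      exact ⟨L, hc.trans_le (ge_of_tendsto' hL hcn), hL⟩
    refine ⟨⟨fun h => ?_, hrec⟩, ⟨fun h => ?_, hnon⟩⟩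
    · by_contra hn
      push Not at hn
      obtain ⟨L, hL0, hL⟩ := h
      have := tendsto_nhds_unique hL (hnon hn)
      linarith
    · by_contra hn
      push Not at hn
      obtain ⟨L, hL0, hL⟩ := hrec hn
      have := tendsto_nhds_unique hL h
      linarith
  · intro d lam hd h0 h1 hm
    exact tendsto_poisson_of_star hd.le h0 (by linarith) hm (star_exists lam h0 h1)
  · intro p lam hp h0 h1 hm
    exact tendsto_of_star hp h0 (by linarith) hm (star_exists lam h0 h1)

end Vale.Agent.Results.P154.ThreeStateFerro
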